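import Vale.Agent.P280.H587.ThmIII
import Vale.Agent.P280.H939.T2

/-! P280, X4: **Theorem III**, a criterion for homogeneity at a single fixed point. -/

namespace Vale.Agent.P280.H587

open Vale.Agent.P280.T Vale.Agent.P280.H939

variable {M : Type} [AddCommGroup M] [DecidableEq M] {R : Type} [CommRing R] [Algebra ℂ R]
  {𝒜 : ℕ × M → Submodule ℂ R} [GradedAlgebra 𝒜]

/-- **Theorem III.** `X` is a projective manifold with torus action, `p` a fixed point, isolated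
source of a one-parameter group; `f` is the section of weight `μ` with `f(p) = 1`. If (i) all
tangent vectors at `p` are values of fields, and (ii) each nonzero tangent vector `v` at `p` of
weight `χ ≠ 0` is detected by a field `D` of weight `χ`: `v (D f) ≠ 0`, then `X` is homogeneous.
(No positivity of the tangent bundle is assumed.) -/
theorem theoremIII (hX : IsTorusManifold 𝒜) {l0 : M →+ ℤ} {p : R →ₐ[ℂ] ℂ} {μ : M} {a : ℤ}
    (hs : IsSource 𝒜 l0 p μ a) {f : R} (hf : f ∈ 𝒜 (1, μ)) (pf : p f = 1)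
    (hi : ∀ v : R →ₗ[ℂ] ℂ, IsTangent p v → ∃ D : Derivation ℂ R R, IsField 𝒜 D ∧
      ∀ h, p (D h) = v h)
    (hii : ∀ (v : R →ₗ[ℂ] ℂ) (χ : M), IsTangent p v → HasWeight 𝒜 μ χ v → χ ≠ 0 → v ≠ 0 →
      ∃ D : Derivation ℂ R R, (∀ d m, ∀ h ∈ 𝒜 (d, m), D h ∈ 𝒜 (d, m + χ)) ∧ v (D f) ≠ 0) :
    IsHomogeneousManifold 𝒜 ∧ H127.IsTransitive 𝒜 := by
  obtain ⟨k, ℓ, m, h1, h2, h3⟩ := exists_coords hX hs hf pf hii
  have h4 : ∀ g ∈ deg 𝒜 1, ∃ N, f ^ N * g ∈ (orb 𝒜 f) ^ (N + 1) := by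
    intro g hg
    obtain ⟨N, hN⟩ := chart_span hX hs hf pf h1 h3 hg
    refine ⟨N, pow_le_pow_left' (Submodule.span_le.2 ?_) _ hN⟩
    intro w hw
    rcases Set.mem_insert_iff.1 hw with rfl | ⟨j, rfl⟩
    · exact orb_mem w
    · exact h2 j
  obtain ⟨N, hN⟩ := uniform_exp hX (orb_mem f) h4
  exact theoremIII_of hX hs hf pf hi hN

end Vale.Agent.P280.H587
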