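import Vale.Agent.P280.H587.RowA
import Vale.Agent.P280.H127.Ext4

/-! P280, X3: the extension theorem at the sink (the grading reversed). -/

open DirectSum

namespace Vale.Agent.P280.H587

open Vale.Agent.P280.T Vale.Agent.P280.H127 Vale.Agent.P280.H812

section
variable {R : Type} [CommRing R] [Algebra ℂ R] {𝒜 : ℕ × ℤ → Submodule ℂ R} [GradedAlgebra 𝒜]

/-- the reversed grading -/
abbrev rev (𝒜 : ℕ × ℤ → Submodule ℂ R) : ℕ × ℤ → Submodule ℂ R := co 𝒜 (-AddMonoidHom.id ℤ)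

omit [GradedAlgebra 𝒜] in
theorem mem_rev {d : ℕ} {m : ℤ} {h : R} (hh : h ∈ 𝒜 (d, m)) : h ∈ rev 𝒜 (d, -m) := mem_co hh

omit [GradedAlgebra 𝒜] in
theorem of_mem_rev {d : ℕ} {k : ℤ} {h : R} (hh : h ∈ rev 𝒜 (d, k)) : h ∈ 𝒜 (d, -k) := by
  refine co_induction (P := fun h => h ∈ 𝒜 (d, -k)) (Submodule.zero_mem _)
    (fun a b ha hb => Submodule.add_mem _ ha hb) ?_ hh
  intro m hm h hh
  have : m = -k := by
    rw [← hm]
    change m = - -m
    rw [neg_neg]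
  rw [← this]
  exact hh

/-- **The extension theorem at the sink.** -/
theorem extension_top {p : R →ₐ[ℂ] ℂ} {μ a : ℤ} {f : R} (H : Hom 𝒜 p μ a f) {σ : ℤ}
    (hσ : IsTop 𝒜 σ) {f0 : R} (hf : f0 ∈ 𝒜 (1, σ)) (hf0 : f0 ≠ 0) (N : ℕ) (D0 : Derivation ℂ R R)
    (hD : ∀ (d : ℕ) (m : ℤ), ∀ h ∈ 𝒜 (d, m), D0 h ∈ 𝒜 (d + N, m + N • σ + a))
    (hcov : ∀ q : R →ₐ[ℂ] ℂ, ¬ IsVertex 𝒜 q → IsFixed 𝒜 q σ →
      ∃ r, q r ≠ 0 ∧ ∀ h, f0 ^ N ∣ r * D0 h) :
    ∀ h, f0 ^ N ∣ D0 h := by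
  have hmem := mem_rev (𝒜 := 𝒜) hf
  refine extension_gen (𝒜 := rev 𝒜) (isTorusManifold_co H.man) H.pos ?_ (μ := -σ) ?_
    (f0 := f0) hmem hf0 N D0 ?_ ?_
  · -- the bound of the weights
    intro q ν hq0 hq χ hχ
    have hq0' : ¬ IsVertex 𝒜 q := fun h => hq0 (isVertex_co.2 h)
    have hq' : IsFixed 𝒜 q (-ν) := by
      intro d m h hh hne
      have h1 := hq d (-m) h (mem_rev hh) hne
      rw [smul_neg, ← h1, neg_neg]
    by_contra hcon
    push Not at hcon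
    have hχ0 : χ ≠ 0 := by
      have := H.pos
      omega
    have h2 : TangentWeight 𝒜 q (-ν) (-χ) := by
      obtain ⟨v, hv, hw, hc⟩ := hχ
      obtain ⟨d, k, h, hh, hne⟩ := hc 0
      rw [zero_mul, zero_mul] at hne
      refine tangentWeight_of_ne hq' (neg_ne_zero.2 hχ0) hv ?_ d (-k) (of_mem_rev hh) hne
      intro d m h hh hne
      have h1 := hw d (-m) h (mem_rev hh) hne
      rw [smul_neg, ← neg_add, ← h1, neg_neg]
    rcases hom_weights H hq0' hq' h2 with h3 | h3 | h3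
    · omega
    · omega
    · have := H.pos
      omega
  · intro m h hh hne
    have h1 := hσ 1 (-m) h (of_mem_rev hh) hne
    rw [one_smul] at h1
    omega
  · intro d m h hh
    have h1 := mem_rev (hD d (-m) h (of_mem_rev hh))
    have e : -(-m + N • σ + a) = m + N • -σ - a := by
      rw [smul_neg]
      ring
    rwa [e] at h1
  · intro q hq0 hq
    refine hcov q (fun h => hq0 (isVertex_co.2 h)) ?_
    intro d m h hh hne
    have h1 := hq d (-m) h (mem_rev hh) hne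
    rw [smul_neg] at h1
    omega

end

end Vale.Agent.P280.H587
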