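import Vale.Agent.P280.H587.FrameA
import Vale.Agent.P280.H587.FrameB
import Vale.Agent.P280.H455.GenTan

/-! P280, X3, row E: all the tangent vectors at a non-vertex are values of derivations of `R`. -/

open DirectSum

namespace Vale.Agent.P280.H587

open Vale.Agent.P280.T Vale.Agent.P280.H127 Vale.Agent.P280.H93 Vale.Agent.P280.H812

section
variable {R : Type} [CommRing R] [Algebra ℂ R] {𝒜 : ℕ × ℤ → Submodule ℂ R} [GradedAlgebra 𝒜]

/-- If all the tangent vectors at one point are values of derivations, so it is at all points. -/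
theorem hspan_of (hX : IsTorusManifold 𝒜) {p : R →ₐ[ℂ] ℂ} (hp : ¬ IsVertex 𝒜 p)
    (hall : ∀ v : R →ₗ[ℂ] ℂ, IsTangent p v → ∃ D : Derivation ℂ R R, ∀ h, p (D h) = v h)
    {q : R →ₐ[ℂ] ℂ} (hq : ¬ IsVertex 𝒜 q) (v : R →ₗ[ℂ] ℂ) (hv : IsTangent q v) :
    ∃ D : Derivation ℂ R R, ∀ h, q (D h) = v h := by
  classical
  have := hX.finiteType
  have := noeth hX
  obtain ⟨n, u, wt, G, hn⟩ := exists_params_T hX (f := (0 : ℕ × ℤ →+ Unit)) hq (fix_trivial q)
  obtain ⟨s, hs, hr⟩ := omega_gens G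
  choose r hr using hr
  have hs0 : s ≠ 0 := by
    rintro rfl
    rw [map_zero] at hs
    exact zero_ne_one hs
  obtain ⟨F, -, hF⟩ := exists_frame hX hp hall hn hs0 r (fun D h => by
    have h1 := congrArg D.liftKaehlerDifferential (hr h)
    rw [map_smul, map_sum, Derivation.liftKaehlerDifferential_comp_D] at h1
    rw [smul_eq_mul] at h1
    rw [h1]
    refine Finset.sum_congr rfl fun j _ => ?_
    rw [map_smul, Derivation.liftKaehlerDifferential_comp_D, smul_eq_mul])
  obtain ⟨w, -, -, -, hsp⟩ := G.exists_dual (fix_trivial q) hn.le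
  refine ⟨∑ j, v (u j) • F j, fun h => ?_⟩
  have hval : ∀ (D : Derivation ℂ R R), IsTangent q (valAt q D) := isTangent_valAt q
  have hsum : ∀ h, (∑ j, v (u j) • F j) h = ∑ j, v (u j) • F j h := by
    intro h
    have h1 := map_sum (Derivation.coeFnAddMonoidHom (R := ℂ) (A := R) (M := R))
      (fun j => v (u j) • F j) Finset.univ
    have h2 := congrFun h1 h
    rw [Finset.sum_apply] at h2
    exact h2
  have e1 : valAt q (∑ j, v (u j) • F j) = v := by
    refine (hsp _ (hval _)).trans (Eq.trans ?_ (hsp v hv).symm)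
    refine Finset.sum_congr rfl fun i _ => ?_
    congr 1
    rw [valAt_apply]
    have h2 : (∑ j, v (u j) • F j) (u i) = v (u i) • s := by
      rw [hsum, Finset.sum_eq_single i]
      · rw [hF, if_pos rfl]
      · intro j _ hj
        rw [hF, if_neg hj, smul_zero]
      · intro hi
        exact absurd (Finset.mem_univ i) hi
    rw [h2, map_smul, hs, smul_eq_mul, mul_one]
  exact LinearMap.congr_fun e1 h

/-- **(E-i)** -/
theorem hspan {p : R →ₐ[ℂ] ℂ} {μ a : ℤ} {f : R} (H : Hom 𝒜 p μ a f) {q : R →ₐ[ℂ] ℂ}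
    (hq : ¬ IsVertex 𝒜 q) (v : R →ₗ[ℂ] ℂ) (hv : IsTangent q v) :
    ∃ D : Derivation ℂ R R, ∀ h, q (D h) = v h := by
  refine hspan_of H.man H.src.1 (fun w hw => ?_) hq v hv
  obtain ⟨E, hE⟩ := exists_euler 𝒜
  obtain ⟨D, -, c, hD⟩ := H455.tangent_of_ne H hE (z := p) (by rw [H.pf]; exact one_ne_zero) hw
  refine ⟨D + c • E, fun h => ?_⟩
  rw [hD, Derivation.add_apply, Derivation.smul_apply, map_add, map_smul, smul_eq_mul]

end

end Vale.Agent.P280.H587
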