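import Vale.Agent.P280.H587.RowA1
import Vale.Agent.P280.H812.X3

/-! P280, X3, row A. -/

open DirectSum

namespace Vale.Agent.P280.H587

open Vale.Agent.P280.T Vale.Agent.P280.H127 Vale.Agent.P280.H812

section
variable {R : Type} [CommRing R] [Algebra ℂ R] {𝒜 : ℕ × ℤ → Submodule ℂ R} [GradedAlgebra 𝒜]
  {p : R →ₐ[ℂ] ℂ} {μ a : ℤ} {f : R}

/-- All relative weights are multiples of `a`. -/
theorem hom_dvd (H : Hom 𝒜 p μ a f) : ∀ d m, ∀ h ∈ 𝒜 (d, m), h ≠ 0 → a ∣ m - d • μ :=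
  dvd_of_fixed H.man H.src.1 H.src.2.1 (a := a) (fun χ hχ => by rw [H.one χ hχ])

/-- The weights at the fixed points are `-a`, `0` and `a`. -/
theorem hom_weights (H : Hom 𝒜 p μ a f) {x : R →ₐ[ℂ] ℂ} {ν : ℤ} (hx0 : ¬ IsVertex 𝒜 x)
    (hx : IsFixed 𝒜 x ν) {χ : ℤ} (hχ : TangentWeight 𝒜 x ν χ) : χ = -a ∨ χ = 0 ∨ χ = a := by
  have hb := weight_bounds H939.theoremI_all H.man H.nef H.src H.pos hx0 hx hχ
  rw [AddMonoidHom.id_apply] at hb
  have h2 : a ∣ χ := by
    obtain ⟨v, hv, hw, hc⟩ := id hχ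
    obtain ⟨d, m, h, hh, hne⟩ := hc 0
    rw [zero_mul, zero_mul] at hne
    have h3 := hom_dvd H d m h hh (fun h0 => hne (by rw [h0, map_zero]))
    rw [hw d m h hh hne] at h3
    obtain ⟨f, hf, hfx⟩ := exists_deg_one_ne H.man.gen hx0 hx
    have h4 := hom_dvd H 1 ν f hf (fun h0 => hfx (by rw [h0, map_zero]))
    rw [one_smul] at h4
    have h5 : χ = (d • ν + χ - d • μ) - d • (ν - μ) := by
      rw [smul_sub]; ring
    rw [h5]
    exact dvd_sub h3 (by
      rw [nsmul_eq_mul]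
      exact Dvd.dvd.mul_left h4 _)
  obtain ⟨k, hk⟩ := h2
  have ha := H.pos
  have h5 : -1 ≤ k := by
    by_contra h
    have : k ≤ -2 := by omega
    nlinarith [hb.1]
  have h6 : k ≤ 1 := by
    by_contra h
    have : 2 ≤ k := by omega
    nlinarith [hb.2]
  have h7 : k = -1 ∨ k = 0 ∨ k = 1 := by omega
  rcases h7 with rfl | rfl | rfl
  · left; rw [hk]; ring
  · right; left; rw [hk]; ring
  · right; right; rw [hk]; ring

/-- **Row A.** -/
theorem rowA : RowA := by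
  intro R _ _ 𝒜 _ p μ a f H x ν hx0 hx
  have := noeth H.man
  obtain ⟨n, u, wt, G, hn⟩ := exists_params_T H.man hx0 (fix_of_isFixed hx)
  have hwt : ∀ i, wt i < 0 → wt i = -a := by
    intro i hi
    have h1 := hom_weights H hx0 hx (tangentWeight_of_wt H.man hx G hn hi.ne)
    have ha := H.pos
    rcases h1 with h1 | h1 | h1
    · exact h1
    · omega
    · omega
  obtain ⟨s, Y, h1, h2, h3, h4, h5⟩ := exists_cell (fix_of_isFixed hx) G hn.le H.pos hwt
  have hmem : ∀ {d : ℕ} {m w : ℤ} {h : R}, h ∈ 𝒜 (d, m) → m - d • ν = w →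
      h ∈ coarse 𝒜 (rl (AddMonoidHom.id ℤ) ν) w := by
    intro d m w h hh hw
    exact mem_coarse hh (by rw [rl_apply]; exact hw)
  refine ⟨s, Y, ⟨h1, ?_, ?_, ?_, ?_⟩⟩
  · intro d m h hh hm
    exact h2 (m - d • ν) (by omega) h (hmem hh rfl)
  · intro d h hh
    exact h3 h (hmem hh (sub_self _))
  · intro d m k h hh hk
    exact h4 (m - d • ν) k (by omega) h (hmem hh rfl)
  · intro h hh
    refine (?_ : cellIdeal (coarse 𝒜 (rl (AddMonoidHom.id ℤ) ν)) x ≤ _) (h5 h hh)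
    set K := Ideal.span ({h | ∃ (d : ℕ) (m : ℤ), d • ν < m ∧ h ∈ 𝒜 (d, m)} ∪
      {h | ∃ d : ℕ, ∃ h' ∈ 𝒜 (d, d • ν), h = h' - algebraMap ℂ R (x h')}) with hK
    refine Ideal.span_le.2 ?_
    rintro y (⟨w, hw, hy⟩ | ⟨y', hy', rfl⟩)
    · refine coarse_induction (P := fun y => y ∈ K) (Ideal.zero_mem _)
        (fun a b ha hb => Ideal.add_mem _ ha hb) ?_ hy
      rintro ⟨d, m⟩ hi y hy
      rw [rl_apply, AddMonoidHom.id_apply] at hi
      exact Ideal.subset_span (Or.inl ⟨d, m, by omega, hy⟩)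
    · refine coarse_induction (P := fun y' => y' - algebraMap ℂ R (x y') ∈ K) ?_ ?_ ?_ hy'
      · simp
      · intro a b ha hb
        have := Ideal.add_mem _ ha hb
        rw [map_add, map_add]
        have e : a + b - (algebraMap ℂ R (x a) + algebraMap ℂ R (x b)) =
            a - algebraMap ℂ R (x a) + (b - algebraMap ℂ R (x b)) := by ring
        rw [e]
        exact this
      · rintro ⟨d, m⟩ hi y hy
        rw [rl_apply, AddMonoidHom.id_apply] at hi
        have hm : m = d • ν := by omega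
        subst hm
        exact Ideal.subset_span (Or.inr ⟨d, y, hy, rfl⟩)

end

end Vale.Agent.P280.H587
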