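import Vale.Agent.P280.H587.OrbW
import Vale.Agent.P280.H93.Const
import Vale.Agent.P280.H127.Wts
import Vale.Agent.P280.H127.Full

/-! P280, X4: **Theorem III**, a criterion for homogeneity at a single fixed point. -/

open DirectSum

namespace Vale.Agent.P280.H587

open Vale.Agent.P280.T Vale.Agent.P280.H939

section
variable {R : Type} [CommRing R] [Algebra ℂ R]

/-- the conjugate `F D F⁻¹` of a derivation -/
def conj (F : R ≃ₐ[ℂ] R) (D : Derivation ℂ R R) : Derivation ℂ R R where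
  toLinearMap := F.toLinearEquiv.toLinearMap ∘ₗ (D : R →ₗ[ℂ] R) ∘ₗ F.symm.toLinearEquiv.toLinearMap
  map_one_eq_zero' := by
    change F (D (F.symm 1)) = 0
    rw [map_one, Derivation.map_one_eq_zero, map_zero]
  leibniz' a b := by
    change F (D (F.symm (a * b))) = a • F (D (F.symm b)) + b • F (D (F.symm a))
    rw [map_mul, Derivation.leibniz, map_add, smul_eq_mul, smul_eq_mul, smul_eq_mul, smul_eq_mul,
      map_mul, map_mul, AlgEquiv.apply_symm_apply, AlgEquiv.apply_symm_apply]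

theorem conj_apply (F : R ≃ₐ[ℂ] R) (D : Derivation ℂ R R) (h : R) :
    conj F D h = F (D (F.symm h)) := rfl

end

section
variable {M : Type} [AddCommGroup M] [DecidableEq M] {R : Type} [CommRing R] [Algebra ℂ R]
  {𝒜 : ℕ × M → Submodule ℂ R} [GradedAlgebra 𝒜]

/-- generation by fields is transported by the group of flows -/
theorem generated_of_move (hX : IsTorusManifold 𝒜) {x : R →ₐ[ℂ] ℂ} {F : R ≃ₐ[ℂ] R}
    (hF : F ∈ Gam 𝒜)
    (hz : ∀ v : R →ₗ[ℂ] ℂ, IsTangent (x.comp (F : R →ₐ[ℂ] R)) v →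
      ∃ D : Derivation ℂ R R, IsField 𝒜 D ∧ ∀ h, x (F (D h)) = v h)
    {v : R →ₗ[ℂ] ℂ} (hv : IsTangent x v) :
    ∃ D : Derivation ℂ R R, IsField 𝒜 D ∧ ∀ h, x (D h) = v h := by
  have h1 : IsTangent (x.comp (F : R →ₐ[ℂ] R)) (v ∘ₗ (F : R →ₐ[ℂ] R).toLinearMap) := by
    intro a b
    change v (F (a * b)) = x (F a) * v (F b) + x (F b) * v (F a)
    rw [map_mul, hv]
  obtain ⟨D, hD, hDv⟩ := hz _ h1
  refine ⟨conj F D, ?_, ?_⟩
  · intro d m h hh
    rw [conj_apply]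
    refine (Gam.graded (finite_deg hX) hF).1 d _ (field_deg hD ?_)
    exact (Gam.graded (finite_deg hX) hF).2 d _ ((le_iSup (fun m : M => 𝒜 (d, m)) m) hh)
  · intro h
    rw [conj_apply, hDv]
    change v (F (F.symm h)) = v h
    rw [AlgEquiv.apply_symm_apply]

/-- a power of `f` is in the ideal of the minors -/
theorem exists_pow_mem (hX : IsTorusManifold 𝒜) {l0 : M →+ ℤ} {p : R →ₐ[ℂ] ℂ} {μ : M} {a : ℤ}
    (hs : IsSource 𝒜 l0 p μ a) {f : R} (hf : f ∈ 𝒜 (1, μ)) (pf : p f = 1)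
    (hi : ∀ v : R →ₗ[ℂ] ℂ, IsTangent p v → ∃ D : Derivation ℂ R R, IsField 𝒜 D ∧
      ∀ h, p (D h) = v h) {N : ℕ}
    (hN : FiniteDimensional ℂ (H93.tangentSpace p) ∧
      Module.finrank ℂ (H93.tangentSpace p) = N) : ∃ d : ℕ, f ^ d ∈ H93.minorIdeal 𝒜 N := by
  have hspan : ∀ v, IsTangent p v → v ∈ Submodule.span ℂ
      {w : R →ₗ[ℂ] ℂ | ∃ (χ : M) (D : Derivation ℂ R R), H93.IsHField 𝒜 χ D ∧
        ∀ h, p (D h) = w h} := by
    intro v hv
    have h1 := H127.mem_span_weight hX hs.1 hs.2.1 hv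
    refine Submodule.span_mono ?_ h1
    rintro w ⟨hw, χ, hχ⟩
    obtain ⟨D, hD, hDw⟩ := hi w hw
    obtain ⟨D', h2, h3⟩ := H93.exists_hfield hs.2.1 hχ D hD hDw
    exact ⟨χ, D', h2, h3⟩
  obtain ⟨r, hr, hpr⟩ := H93.exists_minor hN.1 hN.2 hspan
  obtain ⟨i, hi'⟩ : ∃ i, p (decompose 𝒜 r i : R) ≠ 0 := by
    classical
    by_contra hcon
    push Not at hcon
    apply hpr
    rw [← DirectSum.sum_support_decompose 𝒜 r, map_sum]
    exact Finset.sum_eq_zero fun i _ => hcon i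
  have hmem : (decompose 𝒜 r i : R) ∈ H93.minorIdeal 𝒜 N :=
    H93.minorIdeal_isHomogeneous (𝒜 := 𝒜) N i hr
  obtain ⟨d, m⟩ := i
  have hd : (decompose 𝒜 r (d, m) : R) ∈ 𝒜 (d, m) := SetLike.coe_mem _
  have hm := hs.2.1 d m _ hd hi'
  have hS := source_s2 (isTorusManifold_co (l := l0) hX) (isSource_co hs)
  have h4 : (decompose 𝒜 r (d, m) : R) ∈ co 𝒜 l0 (d, d • l0 μ) := by
    have h5 := mem_co (l := l0) hd
    rw [hm, map_nsmul] at h5
    rw [hm]
    exact h5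
  obtain ⟨c, hc⟩ := hS.2 f (mem_co hf) (by rw [pf]; exact one_ne_zero) d _ h4
  refine ⟨d, ?_⟩
  have hc0 : c ≠ 0 := by
    rintro rfl
    rw [hc, zero_smul, map_zero] at hi'
    exact hi' rfl
  have h6 : f ^ d = algebraMap ℂ R c⁻¹ * (decompose 𝒜 r (d, m) : R) := by
    rw [hc, ← Algebra.smul_def, smul_smul, inv_mul_cancel₀ hc0, one_smul]
  rw [h6]
  exact Ideal.mul_mem_left _ _ hmem

/-- **Theorem III.** `p` is an isolated source, all tangent vectors at `p` are values of fields,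
and high powers of `f` carry the sections into the powers of the orbit of `f`. -/
theorem theoremIII_of (hX : IsTorusManifold 𝒜) {l0 : M →+ ℤ} {p : R →ₐ[ℂ] ℂ} {μ : M} {a : ℤ}
    (hs : IsSource 𝒜 l0 p μ a) {f : R} (hf : f ∈ 𝒜 (1, μ)) (pf : p f = 1)
    (hi : ∀ v : R →ₗ[ℂ] ℂ, IsTangent p v → ∃ D : Derivation ℂ R R, IsField 𝒜 D ∧
      ∀ h, p (D h) = v h) {N : ℕ}
    (hN : ∀ g ∈ deg 𝒜 1, f ^ N * g ∈ (orb 𝒜 f) ^ (N + 1)) :
    IsHomogeneousManifold 𝒜 ∧ H127.IsTransitive 𝒜 := by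
  have hf1 : f ∈ deg 𝒜 1 := (le_iSup (fun m : M => 𝒜 (1, m)) μ) hf
  have hf0 : f ≠ 0 := by
    rintro rfl
    rw [map_zero] at pf
    exact zero_ne_one pf
  obtain ⟨n, hn⟩ := H93.exists_dim hX
  obtain ⟨d, hd⟩ := exists_pow_mem hX hs hf pf hi (hn p hs.1)
  have hH : IsHomogeneousManifold 𝒜 := by
    intro x hx v hv
    obtain ⟨F, hF, hxF⟩ := exists_move (N := N) hX hf1 hf0 (fun F hF g hg => by
      have h1 := (Gam.graded (finite_deg hX) hF).2 1 g hg
      have h2 := orb_map_pow hF (N + 1) (hN _ h1)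
      rw [map_mul, map_pow] at h2
      have h3 : F (F⁻¹ g) = g := F.apply_symm_apply g
      rwa [h3] at h2) hx
    refine generated_of_move hX hF (fun w hw => ?_) hv
    set z : R →ₐ[ℂ] ℂ := x.comp (F : R →ₐ[ℂ] R) with hz
    have hzf : z f ≠ 0 := hxF
    have hz0 : ¬ IsVertex 𝒜 z := fun h => hzf (h 1 μ one_pos f hf)
    have hzd : z (f ^ d) ≠ 0 := by
      rw [map_pow]
      exact pow_ne_zero _ hzf
    obtain ⟨D, hD, hDw⟩ := H93.fields_of_minor (hn z hz0).1 (hn z hz0).2.le hd hzd hw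
    exact ⟨D, hD, hDw⟩
  exact ⟨hH, H127.isTransitive_of_source hX hs hH⟩

/-- a uniform exponent -/
theorem uniform_exp (hX : IsTorusManifold 𝒜) {f : R} {W : Submodule ℂ R} (hf : f ∈ W)
    (h : ∀ g ∈ deg 𝒜 1, ∃ N, f ^ N * g ∈ W ^ (N + 1)) :
    ∃ N, ∀ g ∈ deg 𝒜 1, f ^ N * g ∈ W ^ (N + 1) := by
  classical
  have := finite_deg hX 1
  obtain ⟨s, hs⟩ : (deg 𝒜 1).FG := Module.Finite.iff_fg.1 this
  have hsm : ∀ g ∈ s, g ∈ deg 𝒜 1 := fun g hg => by
    rw [← hs]; exact Submodule.subset_span hg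
  choose! n hn using fun g (hg : g ∈ s) => h g (hsm g hg)
  refine ⟨s.sup n, fun g hg => ?_⟩
  rw [← hs] at hg
  induction hg using Submodule.span_induction with
  | mem g hg =>
    have hle : n g ≤ s.sup n := Finset.le_sup hg
    obtain ⟨k, hk⟩ := Nat.exists_eq_add_of_le hle
    have e : f ^ (s.sup n) * g = f ^ k * (f ^ n g * g) := by
      rw [hk, pow_add]; ring
    have e2 : W ^ (s.sup n + 1) = W ^ k * W ^ (n g + 1) := by
      rw [← pow_add, hk]; exact congrArg (W ^ ·) (by omega)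
    rw [e, e2]
    exact Submodule.mul_mem_mul (Submodule.pow_mem_pow W hf k) (hn g hg)
  | zero => rw [mul_zero]; exact Submodule.zero_mem _
  | add a b _ _ ha hb => rw [mul_add]; exact Submodule.add_mem _ ha hb
  | smul c a _ ha => rw [mul_smul_comm]; exact Submodule.smul_mem _ _ ha

end

end Vale.Agent.P280.H587
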